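import Vale.Agent.Lib.P170.Main

namespace Vale.Agent.Results.P170.A_slow

open Vale.Agent.Lib.P170 Filter Topology

/-- Every threshold sequence of random `k`-SAT varies slowly: consecutive terms differ by `o(1)`. -/
theorem result (k : ℕ) (hk : 2 ≤ k) (r : ℕ → ℝ) (h : IsThresholdSeq k r) :
    Tendsto (fun n : ℕ => r (n + 1) - r n) atTop (𝓝 0) :=
  threshold_slowly_varying hk h

end Vale.Agent.Results.P170.A_slow
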