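import Vale.Agent.Lib.P170.MixMain

namespace Vale.Agent.Results.P170.B_powermean

open Vale.Agent.Lib.P170 Filter Topology

/-- Every threshold sequence `r` of random `k`-SAT, `k ≥ 2`, is closed under power means up to
`o(1)`: if `u_i > 0` and `1 / u_i ^ (k - 1) ≤ r (n_i)`, then `r (n₁ + n₂)` is at least
`1 / ((n₁ u₁ + n₂ u₂) / (n₁ + n₂)) ^ (k - 1) - ε` for large `n₁, n₂`. In particular
`r (n₁ + n₂) ≥ min (r n₁) (r n₂) - ε` for large `n₁, n₂`, and `r (N n) ≥ r n - ε` for large `n`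
at each fixed `N ≥ 1`. -/
theorem result (k : ℕ) (hk : 2 ≤ k) (r : ℕ → ℝ) (h : IsThresholdSeq k r) :
    (∀ U ε : ℝ, 0 < U → 0 < ε → ∃ n₀ : ℕ, ∀ n₁ n₂ : ℕ, n₀ ≤ n₁ → n₀ ≤ n₂ →
      ∀ u₁ u₂ : ℝ, 0 < u₁ → u₁ ≤ U → 0 < u₂ → u₂ ≤ U →
        1 / u₁ ^ (k - 1) ≤ r n₁ → 1 / u₂ ^ (k - 1) ≤ r n₂ →
        1 / (((n₁ : ℝ) * u₁ + (n₂ : ℝ) * u₂) / ((n₁ : ℝ) + n₂)) ^ (k - 1) - ε ≤ r (n₁ + n₂)) ∧
    (∀ ε : ℝ, 0 < ε → ∃ n₀ : ℕ, ∀ n₁ n₂ : ℕ, n₀ ≤ n₁ → n₀ ≤ n₂ →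
      min (r n₁) (r n₂) - ε ≤ r (n₁ + n₂)) ∧
    (∀ N : ℕ, 1 ≤ N → ∀ ε : ℝ, 0 < ε → ∀ᶠ n : ℕ in atTop, r n - ε ≤ r (N * n)) := by
  obtain ⟨j, rfl⟩ : ∃ j, k = j + 1 := ⟨k - 1, by omega⟩
  have hj : 1 ≤ j := by omega
  refine ⟨?_, ?_, ?_⟩
  · intro U ε hU hε
    obtain ⟨n₀, hn₀⟩ := power_mean_closure hj h hU hε
    refine ⟨n₀, fun n₁ n₂ h₁ h₂ u₁ u₂ a b c d e f => ?_⟩
    simp only [Nat.add_sub_cancel] at e f ⊢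
    have key := hn₀ n₁ n₂ h₁ h₂ u₁ u₂ a b c d e f
    rw [← one_div_pow, one_div_div]
    exact key
  · intro ε hε
    exact min_closure hj h hε
  · intro N hN ε hε
    exact multiple_closure hj h N hN hε

end Vale.Agent.Results.P170.B_powermean
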